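import Vale.Agent.Lib.P062.Defs
import Mathlib.Data.Nat.Bitwise
import Mathlib.Data.Set.Lattice

/-!
# A kernel-evaluable checker for Maker strategies in the Snaky game.

A certificate is a finite tree.  Cells of the board are coded by natural numbers `k`, through
`decode k = (k % 32, k / 32)`.  Sets of cells are coded by bitmasks.  A checked certificate
at a Maker position `m` returns a support mask: as long as Breaker owns no cell of the
support, Maker's strategy wins, whatever else Breaker owns.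
-/

set_option linter.unusedSimpArgs false

namespace Vale.Agent.Lib.P062

/-- Decoding of cell codes. -/
def decode (k : ℕ) : Cell := (((k % 32 : ℕ) : ℤ), ((k / 32 : ℕ) : ℤ))

/-- The set of cells coded by a mask. -/
def cellsOf (m : ℕ) : Set Cell := {c | ∃ k, m.testBit k = true ∧ decode k = c}

/-- The mask of the cell `(a, b)`. -/
def bitAt (a b : ℕ) : ℕ := Nat.shiftLeft 1 (Nat.add a (Nat.mul 32 b))

/-- The mask of the copy at `(x, y)` with orientation `R`. -/
def copyMask : ℕ → ℕ → ℕ → ℕ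
  | 0, x, y => (Nat.lor (Nat.lor (Nat.lor (Nat.lor (Nat.lor (bitAt x y) (bitAt (Nat.add x 1) y)) (bitAt (Nat.add x 2) y)) (bitAt (Nat.add x 3) y)) (bitAt (Nat.add x 3) (Nat.add y 1))) (bitAt (Nat.add x 4) (Nat.add y 1)))
  | 1, x, y => (Nat.lor (Nat.lor (Nat.lor (Nat.lor (Nat.lor (bitAt x y) (bitAt (Nat.sub x 1) y)) (bitAt (Nat.sub x 2) y)) (bitAt (Nat.sub x 3) y)) (bitAt (Nat.sub x 3) (Nat.add y 1))) (bitAt (Nat.sub x 4) (Nat.add y 1)))
  | 2, x, y => (Nat.lor (Nat.lor (Nat.lor (Nat.lor (Nat.lor (bitAt x y) (bitAt (Nat.add x 1) y)) (bitAt (Nat.add x 2) y)) (bitAt (Nat.add x 3) y)) (bitAt (Nat.add x 3) (Nat.sub y 1))) (bitAt (Nat.add x 4) (Nat.sub y 1)))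
  | 3, x, y => (Nat.lor (Nat.lor (Nat.lor (Nat.lor (Nat.lor (bitAt x y) (bitAt (Nat.sub x 1) y)) (bitAt (Nat.sub x 2) y)) (bitAt (Nat.sub x 3) y)) (bitAt (Nat.sub x 3) (Nat.sub y 1))) (bitAt (Nat.sub x 4) (Nat.sub y 1)))
  | 4, x, y => (Nat.lor (Nat.lor (Nat.lor (Nat.lor (Nat.lor (bitAt x y) (bitAt x (Nat.add y 1))) (bitAt x (Nat.add y 2))) (bitAt x (Nat.add y 3))) (bitAt (Nat.add x 1) (Nat.add y 3))) (bitAt (Nat.add x 1) (Nat.add y 4)))
  | 5, x, y => (Nat.lor (Nat.lor (Nat.lor (Nat.lor (Nat.lor (bitAt x y) (bitAt x (Nat.add y 1))) (bitAt x (Nat.add y 2))) (bitAt x (Nat.add y 3))) (bitAt (Nat.sub x 1) (Nat.add y 3))) (bitAt (Nat.sub x 1) (Nat.add y 4)))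
  | 6, x, y => (Nat.lor (Nat.lor (Nat.lor (Nat.lor (Nat.lor (bitAt x y) (bitAt x (Nat.sub y 1))) (bitAt x (Nat.sub y 2))) (bitAt x (Nat.sub y 3))) (bitAt (Nat.add x 1) (Nat.sub y 3))) (bitAt (Nat.add x 1) (Nat.sub y 4)))
  | _, x, y => (Nat.lor (Nat.lor (Nat.lor (Nat.lor (Nat.lor (bitAt x y) (bitAt x (Nat.sub y 1))) (bitAt x (Nat.sub y 2))) (bitAt x (Nat.sub y 3))) (bitAt (Nat.sub x 1) (Nat.sub y 3))) (bitAt (Nat.sub x 1) (Nat.sub y 4)))

/-- Coordinates far enough from the border of the coded window. -/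
def goodPos (x y : ℕ) : Bool := Nat.ble 4 x && Nat.ble x 27 && Nat.ble 4 y && Nat.ble y 27

/-- The mask `L` contains an allowed copy. -/
def IsCopyMask (L : ℕ) : Prop := ∃ (t : Cell) (R : Fin 8), allowedCopy t R ⊆ cellsOf L

/-- Breaker's set avoids the cells of a mask. -/
def Avoids (B : Set Cell) (s : ℕ) : Prop := ∀ d ∈ B, d ∉ cellsOf s

/-- The semantics of a certificate at a position with Maker set `m`: there is a depth bound `n`
such that whenever Breaker's set avoids the union `u`, and `r` is outside the intersection `i`,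
Maker wins after Breaker has also taken `r`. -/
def Sem (m u i : ℕ) : Prop :=
  ∃ n, ∀ (B : Set Cell) (r : Cell), Avoids B u → r ∉ cellsOf i →
    MakerForces n (cellsOf m) (insert r B)

/-- Strategy certificates. -/
inductive Cert where
  /-- Maker plays the cell coded `c`, completing the copy `L`. -/
  | leaf (c L : ℕ) (h : IsCopyMask L) : Cert
  /-- A fact already established for the Maker set `m0`. -/
  | known (m0 u i : ℕ) (h : Sem m0 u i) : Cert
  /-- Maker plays the cell coded `c` and then follows `kids`. -/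
  | move (c : ℕ) (kids : Cert) : Cert
  /-- A collection of strategies for the position after Breaker's reply. -/
  | both (a b : Cert) : Cert

/-- Force the evaluation of a natural number. -/
def force {α : Type} (n : ℕ) (k : ℕ → α) : α := Nat.rec (k 0) (fun n' _ => k (Nat.succ n')) n

theorem force_eq {α : Type} (n : ℕ) (k : ℕ → α) : force n k = k n := by
  cases n <;> rfl

/-- `c` is not in the mask `m`, with raw operations. -/
def notIn (m c : ℕ) : Bool := Nat.beq (Nat.land (Nat.shiftRight m c) 1) 0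

theorem testBit_of_notIn {m c : ℕ} (h : notIn m c = true) : m.testBit c = false := by
  have h' : Nat.land (Nat.shiftRight m c) 1 = 0 := Nat.eq_of_beq_eq_true h
  have h'' : (m >>> c) &&& 1 = 0 := h'
  have h3 : (m >>> c) % 2 = 0 := by
    rw [← Nat.and_two_pow_sub_one_eq_mod (m >>> c) 1]
    exact h''
  simp [Nat.testBit, h3]

/-- Case split on a boolean. -/
def bc {α : Type} (f t : α) (b : Bool) : α := Bool.rec f t b

/-- Case split on an option. -/
def oc {α β : Type} (n : β) (s : α → β) (o : Option α) : β := Option.rec n s o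

/-- Case split on a pair. -/
def pc {α β γ : Type} (f : α → β → γ) (p : α × β) : γ := Prod.rec f p

/-- The checker. It returns `(u, i)`: the union and the intersection of the supports of the
strategies held in the certificate. -/
noncomputable def chk (t : Cert) : ℕ → Option (ℕ × ℕ) :=
  Cert.rec (motive := fun _ => ℕ → Option (ℕ × ℕ))
    (fun c L _ m =>
      force (Nat.shiftLeft 1 c) fun b =>
        bc none (some (b, b)) (Nat.beq (Nat.land L (Nat.lor m b)) L))
    (fun m0 u i _ m => bc none (some (u, i)) (Nat.beq m0 m))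
    (fun c _ ih m =>
      bc none
        (force (Nat.shiftLeft 1 c) fun b =>
          force (Nat.lor m b) fun m' =>
            oc none
              (pc fun u i => bc none (force (Nat.lor u b) (fun v => some (v, v))) (Nat.beq i 0))
              (ih m'))
        (notIn m c))
    (fun _ _ iha ihb m =>
      oc none
        (pc fun ua ia =>
          oc none
            (pc fun ub ib => some (Nat.lor ua ub, Nat.land ia ib))
            (ihb m))
        (iha m))
    t

theorem chk_leaf (c L : ℕ) (h : IsCopyMask L) (m : ℕ) : chk (.leaf c L h) m =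
    bif Nat.beq (Nat.land L (Nat.lor m (1 <<< c))) L then some (1 <<< c, 1 <<< c) else none := by
  have : chk (.leaf c L h) m = force (Nat.shiftLeft 1 c) fun b =>
        bc none (some (b, b)) (Nat.beq (Nat.land L (Nat.lor m b)) L) := rfl
  rw [this, force_eq]
  change bc none (some (1 <<< c, 1 <<< c)) (Nat.beq (Nat.land L (Nat.lor m (1 <<< c))) L) = _
  cases Nat.beq (Nat.land L (Nat.lor m (1 <<< c))) L <;> rfl

theorem chk_known (m0 u i : ℕ) (h : Sem m0 u i) (m : ℕ) : chk (.known m0 u i h) m =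
    bif Nat.beq m0 m then some (u, i) else none := by
  have : chk (.known m0 u i h) m = bc none (some (u, i)) (Nat.beq m0 m) := rfl
  rw [this]
  cases Nat.beq m0 m <;> rfl

theorem chk_move (c : ℕ) (kids : Cert) (m : ℕ) : chk (.move c kids) m =
    bif notIn m c then
      match chk kids (m ||| 1 <<< c) with
      | some (u, i) => bif Nat.beq i 0 then some (u ||| 1 <<< c, u ||| 1 <<< c) else none
      | none => none
    else none := by
  have : chk (.move c kids) m = bc none
        (force (Nat.shiftLeft 1 c) fun b =>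
          force (Nat.lor m b) fun m' =>
            oc none
              (pc fun u i => bc none (force (Nat.lor u b) (fun v => some (v, v))) (Nat.beq i 0))
              (chk kids m'))
        (notIn m c) := rfl
  rw [this]
  cases notIn m c with
  | false => rfl
  | true =>
    change (force (Nat.shiftLeft 1 c) fun b =>
          force (Nat.lor m b) fun m' =>
            oc none
              (pc fun u i => bc none (force (Nat.lor u b) (fun v => some (v, v))) (Nat.beq i 0))
              (chk kids m')) = _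
    rw [force_eq, force_eq]
    change oc none
              (pc fun u i => bc none (force (Nat.lor u (1 <<< c)) (fun v => some (v, v))) (Nat.beq i 0))
              (chk kids (m ||| 1 <<< c)) = _
    rcases chk kids (m ||| 1 <<< c) with _ | ⟨u, i⟩
    · rfl
    · change bc none (force (Nat.lor u (1 <<< c)) (fun v => some (v, v))) (Nat.beq i 0) = _
      rw [force_eq]
      change _ = bif Nat.beq i 0 then some (u ||| 1 <<< c, u ||| 1 <<< c) else none
      cases Nat.beq i 0 <;> rfl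

theorem chk_both (a b : Cert) (m : ℕ) : chk (.both a b) m =
    match chk a m with
    | some (ua, ia) =>
        match chk b m with
        | some (ub, ib) => some (ua ||| ub, ia &&& ib)
        | none => none
    | none => none := by
  have : chk (.both a b) m =
      oc none
        (pc fun ua ia =>
          oc none
            (pc fun ub ib => some (Nat.lor ua ub, Nat.land ia ib))
            (chk b m))
        (chk a m) := rfl
  rw [this]
  rcases chk a m with _ | ⟨ua, ia⟩
  · rfl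
  · rcases chk b m with _ | ⟨ub, ib⟩
    · rfl
    · rfl

/-! ## Soundness -/

theorem mem_cellsOf_lor {a b : ℕ} {c : Cell} :
    c ∈ cellsOf (a ||| b) ↔ c ∈ cellsOf a ∨ c ∈ cellsOf b := by
  constructor
  · rintro ⟨k, hk, rfl⟩
    rw [Nat.testBit_or, Bool.or_eq_true] at hk
    rcases hk with hk | hk
    · exact Or.inl ⟨k, hk, rfl⟩
    · exact Or.inr ⟨k, hk, rfl⟩
  · rintro (⟨k, hk, rfl⟩ | ⟨k, hk, rfl⟩)
    · exact ⟨k, by rw [Nat.testBit_or, hk, Bool.true_or], rfl⟩
    · exact ⟨k, by rw [Nat.testBit_or, hk, Bool.or_true], rfl⟩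

theorem decode_injective : Function.Injective decode := by
  intro a b h
  simp only [decode, Prod.mk.injEq] at h
  have h1 : a % 32 = b % 32 := by exact_mod_cast h.1
  have h2 : a / 32 = b / 32 := by exact_mod_cast h.2
  rw [← Nat.mod_add_div a 32, ← Nat.mod_add_div b 32, h1, h2]

theorem cellsOf_bit (c : ℕ) : cellsOf (1 <<< c) = {decode c} := by
  ext d
  constructor
  · rintro ⟨k, hk, rfl⟩
    have : k = c := by
      rw [Nat.one_shiftLeft, Nat.testBit_two_pow] at hk
      simpa [eq_comm] using hk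
    simp [this]
  · intro hd
    rw [Set.mem_singleton_iff] at hd
    subst hd
    exact ⟨c, by rw [Nat.one_shiftLeft, Nat.testBit_two_pow_self], rfl⟩

theorem mem_cellsOf_bit_lor {m c : ℕ} {d : Cell} :
    d ∈ cellsOf (m ||| 1 <<< c) ↔ d = decode c ∨ d ∈ cellsOf m := by
  rw [mem_cellsOf_lor, cellsOf_bit, Set.mem_singleton_iff, or_comm]

theorem cellsOf_zero_not_mem (d : Cell) : d ∉ cellsOf 0 := by
  rintro ⟨k, hk, -⟩
  simp at hk

theorem mem_cellsOf_land {a b : ℕ} {d : Cell} (ha : d ∈ cellsOf a) (hb : d ∈ cellsOf b) :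
    d ∈ cellsOf (a &&& b) := by
  rcases ha with ⟨k, hk, rfl⟩
  rcases hb with ⟨l, hl, hd⟩
  have : l = k := decode_injective hd
  subst this
  exact ⟨l, by rw [Nat.testBit_and, hk, hl, Bool.and_true], rfl⟩

theorem mem_cellsOf_of_land_eq {a b : ℕ} {d : Cell} (h : (a &&& b) = a) (ha : d ∈ cellsOf a) :
    d ∈ cellsOf b := by
  rcases ha with ⟨k, hk, rfl⟩
  refine ⟨k, ?_, rfl⟩
  have : (a &&& b).testBit k = true := by rw [h, hk]
  rw [Nat.testBit_and, Bool.and_eq_true] at this
  exact this.2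

theorem not_mem_of_testBit {m c : ℕ} (h : m.testBit c = false) : decode c ∉ cellsOf m := by
  rintro ⟨k, hk, hd⟩
  have : k = c := decode_injective hd
  subst this
  simp [h] at hk

theorem decode_bit {a b : ℕ} (ha : a < 32) : decode (a + 32 * b) = ((a : ℤ), (b : ℤ)) := by
  have h1 : (a + 32 * b) % 32 = a := by omega
  have h2 : (a + 32 * b) / 32 = b := by omega
  simp only [decode, h1, h2]

theorem mem_cellsOf_bitAt {a b : ℕ} (ha : a < 32) : ((a : ℤ), (b : ℤ)) ∈ cellsOf (bitAt a b) := by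
  have : bitAt a b = 1 <<< (a + 32 * b) := rfl
  rw [this, cellsOf_bit, decode_bit ha]
  exact rfl

theorem mem_six {a1 a2 a3 a4 a5 a6 : ℕ} {d : Cell}
    (h : d ∈ cellsOf a1 ∨ d ∈ cellsOf a2 ∨ d ∈ cellsOf a3 ∨ d ∈ cellsOf a4 ∨ d ∈ cellsOf a5 ∨
      d ∈ cellsOf a6) : d ∈ cellsOf (a1 ||| a2 ||| a3 ||| a4 ||| a5 ||| a6) := by
  simp only [mem_cellsOf_lor]
  tauto

theorem mem_bitAt_of {a b : ℕ} {A B : ℤ} (ha : a < 32) (hA : (a : ℤ) = A) (hB : (b : ℤ) = B) :
    (A, B) ∈ cellsOf (bitAt a b) := by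
  subst hA hB
  exact mem_cellsOf_bitAt ha

/-- Every cell of the copy lies in the mask of the copy. -/
theorem copy_subset_mask {x y R : ℕ} (hpos : goodPos x y = true) (hR : Nat.ble R 7 = true) :
    allowedCopy ((x : ℤ), (y : ℤ)) (Fin.ofNat 8 R) ⊆ cellsOf (copyMask R x y) := by
  simp only [goodPos, Bool.and_eq_true, Nat.ble_eq] at hpos
  obtain ⟨⟨⟨h1, h2⟩, h3⟩, h4⟩ := hpos
  have hR' : R ≤ 7 := by simpa using hR
  rintro d ⟨p, hp, rfl⟩
  simp only [snakyCells, List.mem_cons, List.not_mem_nil, or_false] at hp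
  have hcases : R = 0 ∨ R = 1 ∨ R = 2 ∨ R = 3 ∨ R = 4 ∨ R = 5 ∨ R = 6 ∨ R = 7 := by omega
  rcases hcases with rfl | rfl | rfl | rfl | rfl | rfl | rfl | rfl
  · refine mem_six ?_
    rcases hp with rfl | rfl | rfl | rfl | rfl | rfl
    · have e : (((x : ℤ), (y : ℤ)) + orient (Fin.ofNat 8 0) (((0 : ℤ), (0 : ℤ)) : Cell)) = ((x : ℤ) + 0, (y : ℤ) + 0) := rfl
      rw [e]
      exact Or.inl (mem_bitAt_of (by (try simp only [Nat.add_eq, Nat.sub_eq]); omega) (by (try simp only [Nat.add_eq, Nat.sub_eq]); omega) (by (try simp only [Nat.add_eq, Nat.sub_eq]); omega))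
    · have e : (((x : ℤ), (y : ℤ)) + orient (Fin.ofNat 8 0) (((1 : ℤ), (0 : ℤ)) : Cell)) = ((x : ℤ) + 1, (y : ℤ) + 0) := rfl
      rw [e]
      exact (fun h => Or.inr (Or.inl h)) (mem_bitAt_of (by (try simp only [Nat.add_eq, Nat.sub_eq]); omega) (by (try simp only [Nat.add_eq, Nat.sub_eq]); omega) (by (try simp only [Nat.add_eq, Nat.sub_eq]); omega))
    · have e : (((x : ℤ), (y : ℤ)) + orient (Fin.ofNat 8 0) (((2 : ℤ), (0 : ℤ)) : Cell)) = ((x : ℤ) + 2, (y : ℤ) + 0) := rfl
      rw [e]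
      exact (fun h => Or.inr (Or.inr (Or.inl h))) (mem_bitAt_of (by (try simp only [Nat.add_eq, Nat.sub_eq]); omega) (by (try simp only [Nat.add_eq, Nat.sub_eq]); omega) (by (try simp only [Nat.add_eq, Nat.sub_eq]); omega))
    · have e : (((x : ℤ), (y : ℤ)) + orient (Fin.ofNat 8 0) (((3 : ℤ), (0 : ℤ)) : Cell)) = ((x : ℤ) + 3, (y : ℤ) + 0) := rfl
      rw [e]
      exact (fun h => Or.inr (Or.inr (Or.inr (Or.inl h)))) (mem_bitAt_of (by (try simp only [Nat.add_eq, Nat.sub_eq]); omega) (by (try simp only [Nat.add_eq, Nat.sub_eq]); omega) (by (try simp only [Nat.add_eq, Nat.sub_eq]); omega))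
    · have e : (((x : ℤ), (y : ℤ)) + orient (Fin.ofNat 8 0) (((3 : ℤ), (1 : ℤ)) : Cell)) = ((x : ℤ) + 3, (y : ℤ) + 1) := rfl
      rw [e]
      exact (fun h => Or.inr (Or.inr (Or.inr (Or.inr (Or.inl h))))) (mem_bitAt_of (by (try simp only [Nat.add_eq, Nat.sub_eq]); omega) (by (try simp only [Nat.add_eq, Nat.sub_eq]); omega) (by (try simp only [Nat.add_eq, Nat.sub_eq]); omega))
    · have e : (((x : ℤ), (y : ℤ)) + orient (Fin.ofNat 8 0) (((4 : ℤ), (1 : ℤ)) : Cell)) = ((x : ℤ) + 4, (y : ℤ) + 1) := rfl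
      rw [e]
      exact (fun h => Or.inr (Or.inr (Or.inr (Or.inr (Or.inr h))))) (mem_bitAt_of (by (try simp only [Nat.add_eq, Nat.sub_eq]); omega) (by (try simp only [Nat.add_eq, Nat.sub_eq]); omega) (by (try simp only [Nat.add_eq, Nat.sub_eq]); omega))
  · refine mem_six ?_
    rcases hp with rfl | rfl | rfl | rfl | rfl | rfl
    · have e : (((x : ℤ), (y : ℤ)) + orient (Fin.ofNat 8 1) (((0 : ℤ), (0 : ℤ)) : Cell)) = ((x : ℤ) + (-0), (y : ℤ) + 0) := rfl
      rw [e]
      exact Or.inl (mem_bitAt_of (by (try simp only [Nat.add_eq, Nat.sub_eq]); omega) (by (try simp only [Nat.add_eq, Nat.sub_eq]); omega) (by (try simp only [Nat.add_eq, Nat.sub_eq]); omega))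
    · have e : (((x : ℤ), (y : ℤ)) + orient (Fin.ofNat 8 1) (((1 : ℤ), (0 : ℤ)) : Cell)) = ((x : ℤ) + (-1), (y : ℤ) + 0) := rfl
      rw [e]
      exact (fun h => Or.inr (Or.inl h)) (mem_bitAt_of (by (try simp only [Nat.add_eq, Nat.sub_eq]); omega) (by (try simp only [Nat.add_eq, Nat.sub_eq]); omega) (by (try simp only [Nat.add_eq, Nat.sub_eq]); omega))
    · have e : (((x : ℤ), (y : ℤ)) + orient (Fin.ofNat 8 1) (((2 : ℤ), (0 : ℤ)) : Cell)) = ((x : ℤ) + (-2), (y : ℤ) + 0) := rfl
      rw [e]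
      exact (fun h => Or.inr (Or.inr (Or.inl h))) (mem_bitAt_of (by (try simp only [Nat.add_eq, Nat.sub_eq]); omega) (by (try simp only [Nat.add_eq, Nat.sub_eq]); omega) (by (try simp only [Nat.add_eq, Nat.sub_eq]); omega))
    · have e : (((x : ℤ), (y : ℤ)) + orient (Fin.ofNat 8 1) (((3 : ℤ), (0 : ℤ)) : Cell)) = ((x : ℤ) + (-3), (y : ℤ) + 0) := rfl
      rw [e]
      exact (fun h => Or.inr (Or.inr (Or.inr (Or.inl h)))) (mem_bitAt_of (by (try simp only [Nat.add_eq, Nat.sub_eq]); omega) (by (try simp only [Nat.add_eq, Nat.sub_eq]); omega) (by (try simp only [Nat.add_eq, Nat.sub_eq]); omega))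
    · have e : (((x : ℤ), (y : ℤ)) + orient (Fin.ofNat 8 1) (((3 : ℤ), (1 : ℤ)) : Cell)) = ((x : ℤ) + (-3), (y : ℤ) + 1) := rfl
      rw [e]
      exact (fun h => Or.inr (Or.inr (Or.inr (Or.inr (Or.inl h))))) (mem_bitAt_of (by (try simp only [Nat.add_eq, Nat.sub_eq]); omega) (by (try simp only [Nat.add_eq, Nat.sub_eq]); omega) (by (try simp only [Nat.add_eq, Nat.sub_eq]); omega))
    · have e : (((x : ℤ), (y : ℤ)) + orient (Fin.ofNat 8 1) (((4 : ℤ), (1 : ℤ)) : Cell)) = ((x : ℤ) + (-4), (y : ℤ) + 1) := rfl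
      rw [e]
      exact (fun h => Or.inr (Or.inr (Or.inr (Or.inr (Or.inr h))))) (mem_bitAt_of (by (try simp only [Nat.add_eq, Nat.sub_eq]); omega) (by (try simp only [Nat.add_eq, Nat.sub_eq]); omega) (by (try simp only [Nat.add_eq, Nat.sub_eq]); omega))
  · refine mem_six ?_
    rcases hp with rfl | rfl | rfl | rfl | rfl | rfl
    · have e : (((x : ℤ), (y : ℤ)) + orient (Fin.ofNat 8 2) (((0 : ℤ), (0 : ℤ)) : Cell)) = ((x : ℤ) + 0, (y : ℤ) + (-0)) := rfl
      rw [e]
      exact Or.inl (mem_bitAt_of (by (try simp only [Nat.add_eq, Nat.sub_eq]); omega) (by (try simp only [Nat.add_eq, Nat.sub_eq]); omega) (by (try simp only [Nat.add_eq, Nat.sub_eq]); omega))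
    · have e : (((x : ℤ), (y : ℤ)) + orient (Fin.ofNat 8 2) (((1 : ℤ), (0 : ℤ)) : Cell)) = ((x : ℤ) + 1, (y : ℤ) + (-0)) := rfl
      rw [e]
      exact (fun h => Or.inr (Or.inl h)) (mem_bitAt_of (by (try simp only [Nat.add_eq, Nat.sub_eq]); omega) (by (try simp only [Nat.add_eq, Nat.sub_eq]); omega) (by (try simp only [Nat.add_eq, Nat.sub_eq]); omega))
    · have e : (((x : ℤ), (y : ℤ)) + orient (Fin.ofNat 8 2) (((2 : ℤ), (0 : ℤ)) : Cell)) = ((x : ℤ) + 2, (y : ℤ) + (-0)) := rfl
      rw [e]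
      exact (fun h => Or.inr (Or.inr (Or.inl h))) (mem_bitAt_of (by (try simp only [Nat.add_eq, Nat.sub_eq]); omega) (by (try simp only [Nat.add_eq, Nat.sub_eq]); omega) (by (try simp only [Nat.add_eq, Nat.sub_eq]); omega))
    · have e : (((x : ℤ), (y : ℤ)) + orient (Fin.ofNat 8 2) (((3 : ℤ), (0 : ℤ)) : Cell)) = ((x : ℤ) + 3, (y : ℤ) + (-0)) := rfl
      rw [e]
      exact (fun h => Or.inr (Or.inr (Or.inr (Or.inl h)))) (mem_bitAt_of (by (try simp only [Nat.add_eq, Nat.sub_eq]); omega) (by (try simp only [Nat.add_eq, Nat.sub_eq]); omega) (by (try simp only [Nat.add_eq, Nat.sub_eq]); omega))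
    · have e : (((x : ℤ), (y : ℤ)) + orient (Fin.ofNat 8 2) (((3 : ℤ), (1 : ℤ)) : Cell)) = ((x : ℤ) + 3, (y : ℤ) + (-1)) := rfl
      rw [e]
      exact (fun h => Or.inr (Or.inr (Or.inr (Or.inr (Or.inl h))))) (mem_bitAt_of (by (try simp only [Nat.add_eq, Nat.sub_eq]); omega) (by (try simp only [Nat.add_eq, Nat.sub_eq]); omega) (by (try simp only [Nat.add_eq, Nat.sub_eq]); omega))
    · have e : (((x : ℤ), (y : ℤ)) + orient (Fin.ofNat 8 2) (((4 : ℤ), (1 : ℤ)) : Cell)) = ((x : ℤ) + 4, (y : ℤ) + (-1)) := rfl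
      rw [e]
      exact (fun h => Or.inr (Or.inr (Or.inr (Or.inr (Or.inr h))))) (mem_bitAt_of (by (try simp only [Nat.add_eq, Nat.sub_eq]); omega) (by (try simp only [Nat.add_eq, Nat.sub_eq]); omega) (by (try simp only [Nat.add_eq, Nat.sub_eq]); omega))
  · refine mem_six ?_
    rcases hp with rfl | rfl | rfl | rfl | rfl | rfl
    · have e : (((x : ℤ), (y : ℤ)) + orient (Fin.ofNat 8 3) (((0 : ℤ), (0 : ℤ)) : Cell)) = ((x : ℤ) + (-0), (y : ℤ) + (-0)) := rfl
      rw [e]
      exact Or.inl (mem_bitAt_of (by (try simp only [Nat.add_eq, Nat.sub_eq]); omega) (by (try simp only [Nat.add_eq, Nat.sub_eq]); omega) (by (try simp only [Nat.add_eq, Nat.sub_eq]); omega))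
    · have e : (((x : ℤ), (y : ℤ)) + orient (Fin.ofNat 8 3) (((1 : ℤ), (0 : ℤ)) : Cell)) = ((x : ℤ) + (-1), (y : ℤ) + (-0)) := rfl
      rw [e]
      exact (fun h => Or.inr (Or.inl h)) (mem_bitAt_of (by (try simp only [Nat.add_eq, Nat.sub_eq]); omega) (by (try simp only [Nat.add_eq, Nat.sub_eq]); omega) (by (try simp only [Nat.add_eq, Nat.sub_eq]); omega))
    · have e : (((x : ℤ), (y : ℤ)) + orient (Fin.ofNat 8 3) (((2 : ℤ), (0 : ℤ)) : Cell)) = ((x : ℤ) + (-2), (y : ℤ) + (-0)) := rfl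
      rw [e]
      exact (fun h => Or.inr (Or.inr (Or.inl h))) (mem_bitAt_of (by (try simp only [Nat.add_eq, Nat.sub_eq]); omega) (by (try simp only [Nat.add_eq, Nat.sub_eq]); omega) (by (try simp only [Nat.add_eq, Nat.sub_eq]); omega))
    · have e : (((x : ℤ), (y : ℤ)) + orient (Fin.ofNat 8 3) (((3 : ℤ), (0 : ℤ)) : Cell)) = ((x : ℤ) + (-3), (y : ℤ) + (-0)) := rfl
      rw [e]
      exact (fun h => Or.inr (Or.inr (Or.inr (Or.inl h)))) (mem_bitAt_of (by (try simp only [Nat.add_eq, Nat.sub_eq]); omega) (by (try simp only [Nat.add_eq, Nat.sub_eq]); omega) (by (try simp only [Nat.add_eq, Nat.sub_eq]); omega))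
    · have e : (((x : ℤ), (y : ℤ)) + orient (Fin.ofNat 8 3) (((3 : ℤ), (1 : ℤ)) : Cell)) = ((x : ℤ) + (-3), (y : ℤ) + (-1)) := rfl
      rw [e]
      exact (fun h => Or.inr (Or.inr (Or.inr (Or.inr (Or.inl h))))) (mem_bitAt_of (by (try simp only [Nat.add_eq, Nat.sub_eq]); omega) (by (try simp only [Nat.add_eq, Nat.sub_eq]); omega) (by (try simp only [Nat.add_eq, Nat.sub_eq]); omega))
    · have e : (((x : ℤ), (y : ℤ)) + orient (Fin.ofNat 8 3) (((4 : ℤ), (1 : ℤ)) : Cell)) = ((x : ℤ) + (-4), (y : ℤ) + (-1)) := rfl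
      rw [e]
      exact (fun h => Or.inr (Or.inr (Or.inr (Or.inr (Or.inr h))))) (mem_bitAt_of (by (try simp only [Nat.add_eq, Nat.sub_eq]); omega) (by (try simp only [Nat.add_eq, Nat.sub_eq]); omega) (by (try simp only [Nat.add_eq, Nat.sub_eq]); omega))
  · refine mem_six ?_
    rcases hp with rfl | rfl | rfl | rfl | rfl | rfl
    · have e : (((x : ℤ), (y : ℤ)) + orient (Fin.ofNat 8 4) (((0 : ℤ), (0 : ℤ)) : Cell)) = ((x : ℤ) + 0, (y : ℤ) + 0) := rfl
      rw [e]
      exact Or.inl (mem_bitAt_of (by (try simp only [Nat.add_eq, Nat.sub_eq]); omega) (by (try simp only [Nat.add_eq, Nat.sub_eq]); omega) (by (try simp only [Nat.add_eq, Nat.sub_eq]); omega))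
    · have e : (((x : ℤ), (y : ℤ)) + orient (Fin.ofNat 8 4) (((1 : ℤ), (0 : ℤ)) : Cell)) = ((x : ℤ) + 0, (y : ℤ) + 1) := rfl
      rw [e]
      exact (fun h => Or.inr (Or.inl h)) (mem_bitAt_of (by (try simp only [Nat.add_eq, Nat.sub_eq]); omega) (by (try simp only [Nat.add_eq, Nat.sub_eq]); omega) (by (try simp only [Nat.add_eq, Nat.sub_eq]); omega))
    · have e : (((x : ℤ), (y : ℤ)) + orient (Fin.ofNat 8 4) (((2 : ℤ), (0 : ℤ)) : Cell)) = ((x : ℤ) + 0, (y : ℤ) + 2) := rfl
      rw [e]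
      exact (fun h => Or.inr (Or.inr (Or.inl h))) (mem_bitAt_of (by (try simp only [Nat.add_eq, Nat.sub_eq]); omega) (by (try simp only [Nat.add_eq, Nat.sub_eq]); omega) (by (try simp only [Nat.add_eq, Nat.sub_eq]); omega))
    · have e : (((x : ℤ), (y : ℤ)) + orient (Fin.ofNat 8 4) (((3 : ℤ), (0 : ℤ)) : Cell)) = ((x : ℤ) + 0, (y : ℤ) + 3) := rfl
      rw [e]
      exact (fun h => Or.inr (Or.inr (Or.inr (Or.inl h)))) (mem_bitAt_of (by (try simp only [Nat.add_eq, Nat.sub_eq]); omega) (by (try simp only [Nat.add_eq, Nat.sub_eq]); omega) (by (try simp only [Nat.add_eq, Nat.sub_eq]); omega))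
    · have e : (((x : ℤ), (y : ℤ)) + orient (Fin.ofNat 8 4) (((3 : ℤ), (1 : ℤ)) : Cell)) = ((x : ℤ) + 1, (y : ℤ) + 3) := rfl
      rw [e]
      exact (fun h => Or.inr (Or.inr (Or.inr (Or.inr (Or.inl h))))) (mem_bitAt_of (by (try simp only [Nat.add_eq, Nat.sub_eq]); omega) (by (try simp only [Nat.add_eq, Nat.sub_eq]); omega) (by (try simp only [Nat.add_eq, Nat.sub_eq]); omega))
    · have e : (((x : ℤ), (y : ℤ)) + orient (Fin.ofNat 8 4) (((4 : ℤ), (1 : ℤ)) : Cell)) = ((x : ℤ) + 1, (y : ℤ) + 4) := rfl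
      rw [e]
      exact (fun h => Or.inr (Or.inr (Or.inr (Or.inr (Or.inr h))))) (mem_bitAt_of (by (try simp only [Nat.add_eq, Nat.sub_eq]); omega) (by (try simp only [Nat.add_eq, Nat.sub_eq]); omega) (by (try simp only [Nat.add_eq, Nat.sub_eq]); omega))
  · refine mem_six ?_
    rcases hp with rfl | rfl | rfl | rfl | rfl | rfl
    · have e : (((x : ℤ), (y : ℤ)) + orient (Fin.ofNat 8 5) (((0 : ℤ), (0 : ℤ)) : Cell)) = ((x : ℤ) + (-0), (y : ℤ) + 0) := rfl
      rw [e]
      exact Or.inl (mem_bitAt_of (by (try simp only [Nat.add_eq, Nat.sub_eq]); omega) (by (try simp only [Nat.add_eq, Nat.sub_eq]); omega) (by (try simp only [Nat.add_eq, Nat.sub_eq]); omega))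
    · have e : (((x : ℤ), (y : ℤ)) + orient (Fin.ofNat 8 5) (((1 : ℤ), (0 : ℤ)) : Cell)) = ((x : ℤ) + (-0), (y : ℤ) + 1) := rfl
      rw [e]
      exact (fun h => Or.inr (Or.inl h)) (mem_bitAt_of (by (try simp only [Nat.add_eq, Nat.sub_eq]); omega) (by (try simp only [Nat.add_eq, Nat.sub_eq]); omega) (by (try simp only [Nat.add_eq, Nat.sub_eq]); omega))
    · have e : (((x : ℤ), (y : ℤ)) + orient (Fin.ofNat 8 5) (((2 : ℤ), (0 : ℤ)) : Cell)) = ((x : ℤ) + (-0), (y : ℤ) + 2) := rfl
      rw [e]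
      exact (fun h => Or.inr (Or.inr (Or.inl h))) (mem_bitAt_of (by (try simp only [Nat.add_eq, Nat.sub_eq]); omega) (by (try simp only [Nat.add_eq, Nat.sub_eq]); omega) (by (try simp only [Nat.add_eq, Nat.sub_eq]); omega))
    · have e : (((x : ℤ), (y : ℤ)) + orient (Fin.ofNat 8 5) (((3 : ℤ), (0 : ℤ)) : Cell)) = ((x : ℤ) + (-0), (y : ℤ) + 3) := rfl
      rw [e]
      exact (fun h => Or.inr (Or.inr (Or.inr (Or.inl h)))) (mem_bitAt_of (by (try simp only [Nat.add_eq, Nat.sub_eq]); omega) (by (try simp only [Nat.add_eq, Nat.sub_eq]); omega) (by (try simp only [Nat.add_eq, Nat.sub_eq]); omega))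
    · have e : (((x : ℤ), (y : ℤ)) + orient (Fin.ofNat 8 5) (((3 : ℤ), (1 : ℤ)) : Cell)) = ((x : ℤ) + (-1), (y : ℤ) + 3) := rfl
      rw [e]
      exact (fun h => Or.inr (Or.inr (Or.inr (Or.inr (Or.inl h))))) (mem_bitAt_of (by (try simp only [Nat.add_eq, Nat.sub_eq]); omega) (by (try simp only [Nat.add_eq, Nat.sub_eq]); omega) (by (try simp only [Nat.add_eq, Nat.sub_eq]); omega))
    · have e : (((x : ℤ), (y : ℤ)) + orient (Fin.ofNat 8 5) (((4 : ℤ), (1 : ℤ)) : Cell)) = ((x : ℤ) + (-1), (y : ℤ) + 4) := rfl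
      rw [e]
      exact (fun h => Or.inr (Or.inr (Or.inr (Or.inr (Or.inr h))))) (mem_bitAt_of (by (try simp only [Nat.add_eq, Nat.sub_eq]); omega) (by (try simp only [Nat.add_eq, Nat.sub_eq]); omega) (by (try simp only [Nat.add_eq, Nat.sub_eq]); omega))
  · refine mem_six ?_
    rcases hp with rfl | rfl | rfl | rfl | rfl | rfl
    · have e : (((x : ℤ), (y : ℤ)) + orient (Fin.ofNat 8 6) (((0 : ℤ), (0 : ℤ)) : Cell)) = ((x : ℤ) + 0, (y : ℤ) + (-0)) := rfl
      rw [e]
      exact Or.inl (mem_bitAt_of (by (try simp only [Nat.add_eq, Nat.sub_eq]); omega) (by (try simp only [Nat.add_eq, Nat.sub_eq]); omega) (by (try simp only [Nat.add_eq, Nat.sub_eq]); omega))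
    · have e : (((x : ℤ), (y : ℤ)) + orient (Fin.ofNat 8 6) (((1 : ℤ), (0 : ℤ)) : Cell)) = ((x : ℤ) + 0, (y : ℤ) + (-1)) := rfl
      rw [e]
      exact (fun h => Or.inr (Or.inl h)) (mem_bitAt_of (by (try simp only [Nat.add_eq, Nat.sub_eq]); omega) (by (try simp only [Nat.add_eq, Nat.sub_eq]); omega) (by (try simp only [Nat.add_eq, Nat.sub_eq]); omega))
    · have e : (((x : ℤ), (y : ℤ)) + orient (Fin.ofNat 8 6) (((2 : ℤ), (0 : ℤ)) : Cell)) = ((x : ℤ) + 0, (y : ℤ) + (-2)) := rfl
      rw [e]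
      exact (fun h => Or.inr (Or.inr (Or.inl h))) (mem_bitAt_of (by (try simp only [Nat.add_eq, Nat.sub_eq]); omega) (by (try simp only [Nat.add_eq, Nat.sub_eq]); omega) (by (try simp only [Nat.add_eq, Nat.sub_eq]); omega))
    · have e : (((x : ℤ), (y : ℤ)) + orient (Fin.ofNat 8 6) (((3 : ℤ), (0 : ℤ)) : Cell)) = ((x : ℤ) + 0, (y : ℤ) + (-3)) := rfl
      rw [e]
      exact (fun h => Or.inr (Or.inr (Or.inr (Or.inl h)))) (mem_bitAt_of (by (try simp only [Nat.add_eq, Nat.sub_eq]); omega) (by (try simp only [Nat.add_eq, Nat.sub_eq]); omega) (by (try simp only [Nat.add_eq, Nat.sub_eq]); omega))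
    · have e : (((x : ℤ), (y : ℤ)) + orient (Fin.ofNat 8 6) (((3 : ℤ), (1 : ℤ)) : Cell)) = ((x : ℤ) + 1, (y : ℤ) + (-3)) := rfl
      rw [e]
      exact (fun h => Or.inr (Or.inr (Or.inr (Or.inr (Or.inl h))))) (mem_bitAt_of (by (try simp only [Nat.add_eq, Nat.sub_eq]); omega) (by (try simp only [Nat.add_eq, Nat.sub_eq]); omega) (by (try simp only [Nat.add_eq, Nat.sub_eq]); omega))
    · have e : (((x : ℤ), (y : ℤ)) + orient (Fin.ofNat 8 6) (((4 : ℤ), (1 : ℤ)) : Cell)) = ((x : ℤ) + 1, (y : ℤ) + (-4)) := rfl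
      rw [e]
      exact (fun h => Or.inr (Or.inr (Or.inr (Or.inr (Or.inr h))))) (mem_bitAt_of (by (try simp only [Nat.add_eq, Nat.sub_eq]); omega) (by (try simp only [Nat.add_eq, Nat.sub_eq]); omega) (by (try simp only [Nat.add_eq, Nat.sub_eq]); omega))
  · refine mem_six ?_
    rcases hp with rfl | rfl | rfl | rfl | rfl | rfl
    · have e : (((x : ℤ), (y : ℤ)) + orient (Fin.ofNat 8 7) (((0 : ℤ), (0 : ℤ)) : Cell)) = ((x : ℤ) + (-0), (y : ℤ) + (-0)) := rfl
      rw [e]
      exact Or.inl (mem_bitAt_of (by (try simp only [Nat.add_eq, Nat.sub_eq]); omega) (by (try simp only [Nat.add_eq, Nat.sub_eq]); omega) (by (try simp only [Nat.add_eq, Nat.sub_eq]); omega))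
    · have e : (((x : ℤ), (y : ℤ)) + orient (Fin.ofNat 8 7) (((1 : ℤ), (0 : ℤ)) : Cell)) = ((x : ℤ) + (-0), (y : ℤ) + (-1)) := rfl
      rw [e]
      exact (fun h => Or.inr (Or.inl h)) (mem_bitAt_of (by (try simp only [Nat.add_eq, Nat.sub_eq]); omega) (by (try simp only [Nat.add_eq, Nat.sub_eq]); omega) (by (try simp only [Nat.add_eq, Nat.sub_eq]); omega))
    · have e : (((x : ℤ), (y : ℤ)) + orient (Fin.ofNat 8 7) (((2 : ℤ), (0 : ℤ)) : Cell)) = ((x : ℤ) + (-0), (y : ℤ) + (-2)) := rfl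
      rw [e]
      exact (fun h => Or.inr (Or.inr (Or.inl h))) (mem_bitAt_of (by (try simp only [Nat.add_eq, Nat.sub_eq]); omega) (by (try simp only [Nat.add_eq, Nat.sub_eq]); omega) (by (try simp only [Nat.add_eq, Nat.sub_eq]); omega))
    · have e : (((x : ℤ), (y : ℤ)) + orient (Fin.ofNat 8 7) (((3 : ℤ), (0 : ℤ)) : Cell)) = ((x : ℤ) + (-0), (y : ℤ) + (-3)) := rfl
      rw [e]
      exact (fun h => Or.inr (Or.inr (Or.inr (Or.inl h)))) (mem_bitAt_of (by (try simp only [Nat.add_eq, Nat.sub_eq]); omega) (by (try simp only [Nat.add_eq, Nat.sub_eq]); omega) (by (try simp only [Nat.add_eq, Nat.sub_eq]); omega))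
    · have e : (((x : ℤ), (y : ℤ)) + orient (Fin.ofNat 8 7) (((3 : ℤ), (1 : ℤ)) : Cell)) = ((x : ℤ) + (-1), (y : ℤ) + (-3)) := rfl
      rw [e]
      exact (fun h => Or.inr (Or.inr (Or.inr (Or.inr (Or.inl h))))) (mem_bitAt_of (by (try simp only [Nat.add_eq, Nat.sub_eq]); omega) (by (try simp only [Nat.add_eq, Nat.sub_eq]); omega) (by (try simp only [Nat.add_eq, Nat.sub_eq]); omega))
    · have e : (((x : ℤ), (y : ℤ)) + orient (Fin.ofNat 8 7) (((4 : ℤ), (1 : ℤ)) : Cell)) = ((x : ℤ) + (-1), (y : ℤ) + (-4)) := rfl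
      rw [e]
      exact (fun h => Or.inr (Or.inr (Or.inr (Or.inr (Or.inr h))))) (mem_bitAt_of (by (try simp only [Nat.add_eq, Nat.sub_eq]); omega) (by (try simp only [Nat.add_eq, Nat.sub_eq]); omega) (by (try simp only [Nat.add_eq, Nat.sub_eq]); omega))

theorem isCopyMask_of {L x y R : ℕ} (hpos : goodPos x y = true) (hR : Nat.ble R 7 = true)
    (hL : L = copyMask R x y) : IsCopyMask L := by
  subst hL
  exact ⟨_, _, copy_subset_mask hpos hR⟩

theorem ownsCopy_of_leaf {m L : ℕ} (hL : IsCopyMask L) (h : Nat.beq (Nat.land L m) L = true) :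
    OwnsCopy (cellsOf m) := by
  obtain ⟨t, R, hs⟩ := hL
  refine ⟨t, R, fun d hd => mem_cellsOf_of_land_eq (Nat.eq_of_beq_eq_true h) (hs hd)⟩

theorem makerForces_of_ownsCopy {n : ℕ} {M B : Set Cell} (h : OwnsCopy M) :
    MakerForces n M B := by
  cases n with
  | zero => exact h
  | succ n => exact Or.inl h

theorem makerForces_succ {n : ℕ} {M B : Set Cell} (h : MakerForces n M B) :
    MakerForces (n + 1) M B := by
  induction n generalizing M B with
  | zero => exact Or.inl h
  | succ n ih =>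
    rcases h with h | ⟨c, hcM, hcB, h⟩
    · exact Or.inl h
    · exact Or.inr ⟨c, hcM, hcB, fun r hrc hrM hrB => ih (h r hrc hrM hrB)⟩

theorem makerForces_mono {n k : ℕ} (hnk : n ≤ k) {M B : Set Cell} (h : MakerForces n M B) :
    MakerForces k M B := by
  induction hnk with
  | refl => exact h
  | step _ ih => exact makerForces_succ ih

theorem cellsOf_bit_lor (m c : ℕ) : cellsOf (m ||| 1 <<< c) = insert (decode c) (cellsOf m) := by
  ext d
  rw [mem_cellsOf_bit_lor, Set.mem_insert_iff]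

theorem avoids_of_lor_left {B : Set Cell} {a b : ℕ} (h : Avoids B (a ||| b)) : Avoids B a :=
  fun d hd hda => h d hd (mem_cellsOf_lor.2 (Or.inl hda))

theorem avoids_of_lor_right {B : Set Cell} {a b : ℕ} (h : Avoids B (a ||| b)) : Avoids B b :=
  fun d hd hdb => h d hd (mem_cellsOf_lor.2 (Or.inr hdb))

theorem avoids_insert {B : Set Cell} {s : ℕ} {r : Cell} (h : Avoids B s) (hr : r ∉ cellsOf s) :
    Avoids (insert r B) s := by
  rintro d (rfl | hd)
  · exact hr
  · exact h d hd

/-- Maker's move step. -/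
theorem move_step {m c u' i' n : ℕ} (hc : m.testBit c = false)
    (hi : i' = 0)
    (ih : ∀ (B : Set Cell) (r : Cell), Avoids B u' → r ∉ cellsOf i' →
      MakerForces n (cellsOf (m ||| 1 <<< c)) (insert r B))
    (B : Set Cell) (hB : Avoids B (u' ||| 1 <<< c)) :
    MakerForces (n + 1) (cellsOf m) B := by
  refine Or.inr ⟨decode c, not_mem_of_testBit hc, ?_, ?_⟩
  · intro hcB
    refine hB _ hcB (mem_cellsOf_lor.2 (Or.inr ?_))
    rw [cellsOf_bit]
    exact rfl
  · intro r _ _ hrB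
    rw [← cellsOf_bit_lor]
    refine ih B r (avoids_of_lor_left hB) ?_
    rw [hi]
    exact cellsOf_zero_not_mem r

/-- Soundness of the checker. -/
theorem chk_sound : ∀ (t : Cert) (m u i : ℕ), chk t m = some (u, i) → Sem m u i := by
  intro t
  induction t with
  | leaf c L hL =>
    intro m u i h
    rw [chk_leaf] at h
    rcases hc : Nat.beq (Nat.land L (Nat.lor m (1 <<< c))) L with _ | _
    · rw [hc, cond_false] at h
      cases h
    · rw [hc, cond_true] at h
      simp only [Option.some.injEq, Prod.mk.injEq] at h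
      obtain ⟨rfl, rfl⟩ := h
      have hown : OwnsCopy (cellsOf (m ||| 1 <<< c)) := ownsCopy_of_leaf hL hc
      refine ⟨1, fun B r hB hr => ?_⟩
      by_cases hcm : decode c ∈ cellsOf m
      · refine Or.inl ?_
        rw [cellsOf_bit_lor, Set.insert_eq_of_mem hcm] at hown
        exact hown
      · refine Or.inr ⟨decode c, hcm, ?_, ?_⟩
        · rintro (h1 | h1)
          · apply hr
            rw [← h1, cellsOf_bit]
            exact rfl
          · apply hB _ h1
            rw [cellsOf_bit]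
            exact rfl
        · intro r' _ _ _
          apply makerForces_of_ownsCopy
          rw [← cellsOf_bit_lor]
          exact hown
  | known m0 u0 i0 h0 =>
    intro m u i h
    rw [chk_known] at h
    rcases hc : Nat.beq m0 m with _ | _
    · rw [hc, cond_false] at h
      cases h
    · rw [hc, cond_true] at h
      simp only [Option.some.injEq, Prod.mk.injEq] at h
      obtain ⟨rfl, rfl⟩ := h
      rw [← Nat.eq_of_beq_eq_true hc]
      exact h0
  | move c kids ih =>
    intro m u i h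
    rw [chk_move] at h
    rcases hc : notIn m c with _ | _
    · simp [hc] at h
    · simp only [hc, cond_true] at h
      rcases hk : chk kids (m ||| 1 <<< c) with _ | ⟨u', i'⟩
      · simp [hk] at h
      · simp only [hk] at h
        rcases hi : Nat.beq i' 0 with _ | _
        · simp [hi] at h
        · simp only [hi, cond_true, Option.some.injEq, Prod.mk.injEq] at h
          obtain ⟨rfl, rfl⟩ := h
          obtain ⟨n, hn⟩ := ih _ _ _ hk
          refine ⟨n + 1, fun B r hB hr => ?_⟩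
          exact move_step (testBit_of_notIn hc) (by simpa using hi) hn _ (avoids_insert hB hr)
  | both a b iha ihb =>
    intro m u i h
    rw [chk_both] at h
    rcases ha : chk a m with _ | ⟨ua, ia⟩
    · simp [ha] at h
    · simp only [ha] at h
      rcases hb : chk b m with _ | ⟨ub, ib⟩
      · simp [hb] at h
      · simp only [hb, Option.some.injEq, Prod.mk.injEq] at h
        obtain ⟨rfl, rfl⟩ := h
        obtain ⟨na, hna⟩ := iha _ _ _ ha
        obtain ⟨nb, hnb⟩ := ihb _ _ _ hb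
        refine ⟨max na nb, fun B r hB hr => ?_⟩
        by_cases hra : r ∈ cellsOf ia
        · have hrb : r ∉ cellsOf ib := fun hrb => hr (mem_cellsOf_land hra hrb)
          exact makerForces_mono (le_max_right _ _) (hnb B r (avoids_of_lor_right hB) hrb)
        · exact makerForces_mono (le_max_left _ _) (hna B r (avoids_of_lor_left hB) hra)

/-- A checked certificate establishes its semantic fact. -/
theorem sem_of_chk (t : Cert) (m u i : ℕ) (h : chk t m = some (u, i)) : Sem m u i :=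
  chk_sound t m u i h

/-- A checked certificate starting with a Maker move. -/
theorem forces_of_chk (m c : ℕ) (kids : Cert) (u i : ℕ) (h : chk (.move c kids) m = some (u, i)) :
    ∃ n, ∀ B : Set Cell, Avoids B u → MakerForces n (cellsOf m) B := by
  rw [chk_move] at h
  rcases hc : notIn m c with _ | _
  · simp [hc] at h
  · simp only [hc, cond_true] at h
    rcases hk : chk kids (m ||| 1 <<< c) with _ | ⟨u', i'⟩
    · simp [hk] at h
    · simp only [hk] at h
      rcases hi : Nat.beq i' 0 with _ | _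
      · simp [hi] at h
      · simp only [hi, cond_true, Option.some.injEq, Prod.mk.injEq] at h
        obtain ⟨rfl, rfl⟩ := h
        obtain ⟨n, hn⟩ := chk_sound _ _ _ _ hk
        exact ⟨n + 1, fun B hB => move_step (testBit_of_notIn hc) (by simpa using hi) hn B hB⟩

/-- A checked certificate starting with a Maker move at the empty position gives the win. -/
theorem win_of_chk (c : ℕ) (kids : Cert) (h : (chk (.move c kids) 0).isSome = true) :
    ∃ n, MakerForces n (∅ : Set Cell) (∅ : Set Cell) := by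
  rcases hk : chk (.move c kids) 0 with _ | ⟨u, i⟩
  · simp [hk] at h
  · obtain ⟨n, hn⟩ := forces_of_chk _ _ _ _ _ hk
    have h0 : cellsOf 0 = (∅ : Set Cell) := Set.eq_empty_of_forall_notMem cellsOf_zero_not_mem
    refine ⟨n, ?_⟩
    have := hn ∅ (fun d hd => absurd hd (Set.notMem_empty d))
    rwa [h0] at this

end Vale.Agent.Lib.P062
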