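import Mathlib.Data.Set.Insert
import Mathlib.Algebra.Group.Prod
import Mathlib.Algebra.Group.Int.Defs

/-!
# The Snaky achievement game on the plane: the game itself.
-/

namespace Vale.Agent.Lib.P062

/-- A cell of the square grid, indexed by its lower-left corner. -/
abbrev Cell := ℤ × ℤ

/-- The six cells of the hexomino Snaky. -/
def snakyCells : List Cell := [(0, 0), (1, 0), (2, 0), (3, 0), (3, 1), (4, 1)]

/-- The eight signed permutation matrices, acting on cells. -/
def orient (R : Fin 8) (p : Cell) : Cell :=
  match R.val with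
  | 0 => (p.1, p.2)
  | 1 => (-p.1, p.2)
  | 2 => (p.1, -p.2)
  | 3 => (-p.1, -p.2)
  | 4 => (p.2, p.1)
  | 5 => (-p.2, p.1)
  | 6 => (p.2, -p.1)
  | _ => (-p.2, -p.1)

/-- The allowed copy `t + R(S)` of Snaky, as a set of cells. -/
def allowedCopy (t : Cell) (R : Fin 8) : Set Cell :=
  {c | ∃ p ∈ snakyCells, c = t + orient R p}

/-- Maker owns every cell of some allowed copy of Snaky. -/
def OwnsCopy (M : Set Cell) : Prop :=
  ∃ (t : Cell) (R : Fin 8), allowedCopy t R ⊆ M

/-- `MakerForces n M B`: Maker owns the cells `M`, Breaker owns the cells `B`, and it is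
Maker's turn; Maker can force owning a copy of Snaky within `n` further turns of its own,
against every legal play of Breaker. -/
def MakerForces : ℕ → Set Cell → Set Cell → Prop
  | 0, M, _ => OwnsCopy M
  | n + 1, M, B =>
      OwnsCopy M ∨
        ∃ c, c ∉ M ∧ c ∉ B ∧
          ∀ r, r ≠ c → r ∉ M → r ∉ B → MakerForces n (insert c M) (insert r B)

end Vale.Agent.Lib.P062
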