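import Vale.Agent.Lib.P062.Checker
import Mathlib.Data.Set.Image
import Mathlib.Tactic.FinCases
import Mathlib.Tactic.Abel
import Mathlib.Tactic.Positivity
import Mathlib.Algebra.Order.Ring.Int
import Mathlib.Tactic.Ring
import Mathlib.Data.List.FinRange
import Mathlib.Data.Fintype.Fin

/-!
# Symmetries of the Snaky game and assembly of the final win.
-/

namespace Vale.Agent.Lib.P062

/-- The inverse of an orientation. -/
def orientInv : Fin 8 → Fin 8
  | 0 => 0
  | 1 => 1
  | 2 => 2
  | 3 => 3
  | 4 => 4
  | 5 => 6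
  | 6 => 5
  | 7 => 7

theorem orientInv_inv (R : Fin 8) : orientInv (orientInv R) = R := by
  revert R; decide

theorem orient_inv (R : Fin 8) (p : Cell) : orient (orientInv R) (orient R p) = p := by
  obtain ⟨x, y⟩ := p
  fin_cases R <;> simp [orient, orientInv]

theorem orient_add (R : Fin 8) (p q : Cell) : orient R (p + q) = orient R p + orient R q := by
  obtain ⟨x, y⟩ := p
  obtain ⟨u, v⟩ := q
  fin_cases R <;> simp [orient] <;> omega

theorem orient_comp (R S : Fin 8) : ∃ Q : Fin 8, ∀ p : Cell, orient R (orient S p) = orient Q p := by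
  fin_cases R <;> fin_cases S <;>
    first
    | (refine ⟨0, fun p => ?_⟩; simp [orient]; done)
    | (refine ⟨1, fun p => ?_⟩; simp [orient]; done)
    | (refine ⟨2, fun p => ?_⟩; simp [orient]; done)
    | (refine ⟨3, fun p => ?_⟩; simp [orient]; done)
    | (refine ⟨4, fun p => ?_⟩; simp [orient]; done)
    | (refine ⟨5, fun p => ?_⟩; simp [orient]; done)
    | (refine ⟨6, fun p => ?_⟩; simp [orient]; done)
    | (refine ⟨7, fun p => ?_⟩; simp [orient])

/-- The symmetry of the board fixing the cell `a` with linear part `orient R`. -/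
def symm (a : Cell) (R : Fin 8) (c : Cell) : Cell := a + orient R (c - a)

theorem symm_inv (a : Cell) (R : Fin 8) (c : Cell) : symm a (orientInv R) (symm a R c) = c := by
  simp only [symm, add_sub_cancel_left, orient_inv]
  abel

theorem symm_inv' (a : Cell) (R : Fin 8) (c : Cell) : symm a R (symm a (orientInv R) c) = c := by
  have := symm_inv a (orientInv R) c
  rwa [orientInv_inv] at this

theorem symm_self (a : Cell) (R : Fin 8) : symm a R a = a := by
  have h0 : orient R (0 : Cell) = 0 := by
    fin_cases R <;> simp [orient]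
  simp [symm, h0]

theorem symm_injective (a : Cell) (R : Fin 8) : Function.Injective (symm a R) := fun x y h => by
  have := congrArg (symm a (orientInv R)) h
  rwa [symm_inv, symm_inv] at this

theorem symm_add (a t : Cell) (R : Fin 8) (q : Cell) :
    symm a R (t + q) = symm a R t + orient R q := by
  have : t + q - a = (t - a) + q := by abel
  simp only [symm, this, orient_add]
  abel

theorem ownsCopy_image (a : Cell) (R : Fin 8) {M : Set Cell} (h : OwnsCopy M) :
    OwnsCopy (symm a R '' M) := by
  obtain ⟨t, S, hs⟩ := h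
  obtain ⟨Q, hQ⟩ := orient_comp R S
  refine ⟨symm a R t, Q, ?_⟩
  rintro d ⟨p, hp, rfl⟩
  refine ⟨t + orient S p, hs ⟨p, hp, rfl⟩, ?_⟩
  rw [symm_add, hQ]

theorem forces_image (a : Cell) (R : Fin 8) {n : ℕ} {M B : Set Cell} (h : MakerForces n M B) :
    MakerForces n (symm a R '' M) (symm a R '' B) := by
  induction n generalizing M B with
  | zero => exact ownsCopy_image a R h
  | succ n ih =>
    rcases h with h | ⟨c, hcM, hcB, h⟩
    · exact Or.inl (ownsCopy_image a R h)
    · refine Or.inr ⟨symm a R c, ?_, ?_, ?_⟩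
      · rintro ⟨d, hd, hdc⟩
        exact hcM (symm_injective a R hdc ▸ hd)
      · rintro ⟨d, hd, hdc⟩
        exact hcB (symm_injective a R hdc ▸ hd)
      · intro r hrc hrM hrB
        have hr : symm a R (symm a (orientInv R) r) = r := symm_inv' a R r
        have h1 := ih (h (symm a (orientInv R) r)
          (fun e => hrc (by rw [← hr, e]))
          (fun e => hrM ⟨_, e, hr⟩)
          (fun e => hrB ⟨_, e, hr⟩))
        rw [Set.image_insert_eq, Set.image_insert_eq, hr] at h1
        exact h1

/-- Finitely many supports, each with a depth bound, have a common depth bound. -/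
theorem common_bound (m : ℕ) (Us : List ℕ)
    (hU : ∀ U ∈ Us, ∃ n, ∀ B : Set Cell, Avoids B U → MakerForces n (cellsOf m) B) :
    ∃ n, ∀ U ∈ Us, ∀ B : Set Cell, Avoids B U → MakerForces n (cellsOf m) B := by
  induction Us with
  | nil => exact ⟨0, fun U hU => absurd hU (List.not_mem_nil)⟩
  | cons U Us ih =>
    obtain ⟨n1, h1⟩ := hU U (List.mem_cons_self)
    obtain ⟨n2, h2⟩ := ih (fun V hV => hU V (List.mem_cons_of_mem _ hV))
    refine ⟨max n1 n2, fun V hV B hB => ?_⟩
    rcases List.mem_cons.1 hV with rfl | hV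
    · exact makerForces_mono (le_max_left _ _) (h1 B hB)
    · exact makerForces_mono (le_max_right _ _) (h2 V hV B hB)

/-- A cell is certainly outside a mask. -/
def outside (U : ℕ) (c : Cell) : Bool :=
  !(decide (0 ≤ c.1) && decide (c.1 < 32) && decide (0 ≤ c.2)) || !U.testBit (c.1 + 32 * c.2).toNat

theorem not_mem_of_outside {U : ℕ} {c : Cell} (h : outside U c = true) : c ∉ cellsOf U := by
  rintro ⟨k, hk, rfl⟩
  simp only [outside, decode, Bool.or_eq_true, Bool.not_eq_true', Bool.and_eq_false_iff] at h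
  have h1 : ((k % 32 : ℕ) : ℤ) < 32 := by omega
  have h2 : (0 : ℤ) ≤ ((k % 32 : ℕ) : ℤ) := by omega
  have h3 : (0 : ℤ) ≤ ((k / 32 : ℕ) : ℤ) := by omega
  have h4 : (((k % 32 : ℕ) : ℤ) + 32 * ((k / 32 : ℕ) : ℤ)).toNat = k := by omega
  rcases h with (h | h) | h
  · rcases h with h | h
    · exact (decide_eq_false_iff_not.1 h) h2
    · exact (decide_eq_false_iff_not.1 h) h1
  · exact (decide_eq_false_iff_not.1 h) h3
  · rw [h4, hk] at h
    cases h

/-- The finite coverage check: for every code `k < N`, either `decode k` is within squared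
distance `D` of `a` or some symmetry moves it outside some support. -/
def coverCheck (a : Cell) (Us : List ℕ) (N : ℕ) (D : ℤ) : Bool :=
  (List.range N).all fun k =>
    decide ((decode k - a).1 * (decode k - a).1 + (decode k - a).2 * (decode k - a).2 ≤ D) ||
      (List.finRange 8).any fun R => Us.any fun U => outside U (symm a R (decode k))

/-- A cover gives the common bound after Breaker's reply. -/
theorem replies_of_cover (A : ℕ) (U0 : ℕ) (Us : List ℕ) (N : ℕ) (D : ℤ)
    (hU : ∀ U ∈ U0 :: Us, ∃ n, ∀ B : Set Cell, Avoids B U → MakerForces n (cellsOf (1 <<< A)) B)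
    (hN : U0 < 2 ^ N)
    (hcover : coverCheck (decode A) (U0 :: Us) N D = true) :
    ∃ n, ∀ r : Cell, D < (r - decode A).1 * (r - decode A).1 + (r - decode A).2 * (r - decode A).2 →
      MakerForces n {decode A} {r} := by
  obtain ⟨n, hn⟩ := common_bound _ _ hU
  set a := decode A with ha
  have hmask : cellsOf (1 <<< A) = {a} := cellsOf_bit A
  rw [hmask] at hn
  refine ⟨n, fun r hr => ?_⟩
  -- find a symmetry and a support
  have hex : ∃ R : Fin 8, ∃ U ∈ U0 :: Us, symm a R r ∉ cellsOf U := by
    by_cases hr' : ∃ k, k < N ∧ decode k = r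
    · obtain ⟨k, hk, rfl⟩ := hr'
      simp only [coverCheck, List.all_eq_true, List.mem_range, Bool.or_eq_true, decide_eq_true_eq,
        List.any_eq_true] at hcover
      rcases hcover k hk with h | ⟨R, _, U, hUm, hout⟩
      · exact absurd h (not_le.2 hr)
      · exact ⟨R, U, hUm, not_mem_of_outside hout⟩
    · refine ⟨0, U0, List.mem_cons_self, ?_⟩
      have h0 : symm a 0 r = r := by
        simp only [symm]
        rw [show orient 0 (r - a) = r - a from rfl]
        abel
      rw [h0]
      rintro ⟨k, hk, hd⟩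
      apply hr'
      refine ⟨k, ?_, hd⟩
      by_contra hkN
      have : 2 ^ N ≤ 2 ^ k := Nat.pow_le_pow_right (by norm_num) (not_lt.1 hkN)
      rw [Nat.testBit_lt_two_pow (lt_of_lt_of_le hN this)] at hk
      cases hk
  obtain ⟨R, U, hUm, hout⟩ := hex
  have h1 : MakerForces n {a} {symm a R r} := by
    refine hn U hUm _ ?_
    intro d hd
    rw [Set.mem_singleton_iff] at hd
    rw [hd]
    exact hout
  have h2 := forces_image a (orientInv R) h1
  rw [Set.image_singleton, Set.image_singleton, symm_inv, symm_self] at h2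
  exact h2

/-- Translations preserve copies. -/
theorem ownsCopy_translate (v : Cell) {M : Set Cell} (h : OwnsCopy M) :
    OwnsCopy ((fun c => c + v) '' M) := by
  obtain ⟨t, S, hs⟩ := h
  refine ⟨t + v, S, ?_⟩
  rintro d ⟨p, hp, rfl⟩
  refine ⟨t + orient S p, hs ⟨p, hp, rfl⟩, ?_⟩
  abel

/-- Translations preserve the game. -/
theorem forces_translate (v : Cell) {n : ℕ} {M B : Set Cell} (h : MakerForces n M B) :
    MakerForces n ((fun c => c + v) '' M) ((fun c => c + v) '' B) := by
  induction n generalizing M B with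
  | zero => exact ownsCopy_translate v h
  | succ n ih =>
    rcases h with h | ⟨c, hcM, hcB, h⟩
    · exact Or.inl (ownsCopy_translate v h)
    · refine Or.inr ⟨c + v, ?_, ?_, ?_⟩
      · rintro ⟨d, hd, hdc⟩
        exact hcM (add_right_cancel hdc ▸ hd)
      · rintro ⟨d, hd, hdc⟩
        exact hcB (add_right_cancel hdc ▸ hd)
      · intro r hrc hrM hrB
        have hr : (r - v) + v = r := sub_add_cancel r v
        have h1 := ih (h (r - v)
          (fun e => hrc (by rw [← hr, e]))
          (fun e => hrM ⟨_, e, hr⟩)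
          (fun e => hrB ⟨_, e, hr⟩))
        rw [Set.image_insert_eq, Set.image_insert_eq, hr] at h1
        exact h1

/-- The position after the first two turns, with the first stone at the origin. -/
theorem replies_at_origin (A : ℕ) (U0 : ℕ) (Us : List ℕ) (N : ℕ) (D : ℤ)
    (hU : ∀ U ∈ U0 :: Us, ∃ n, ∀ B : Set Cell, Avoids B U → MakerForces n (cellsOf (1 <<< A)) B)
    (hN : U0 < 2 ^ N)
    (hcover : coverCheck (decode A) (U0 :: Us) N D = true) :
    ∃ n, ∀ r : Cell, D < r.1 ^ 2 + r.2 ^ 2 → MakerForces n {((0 : ℤ), (0 : ℤ))} {r} := by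
  obtain ⟨n, hn⟩ := replies_of_cover A U0 Us N D hU hN hcover
  refine ⟨n, fun r hr => ?_⟩
  have h1 := hn (r + decode A) (by
    simpa [sq] using hr)
  have h2 := forces_translate (-decode A) h1
  rw [Set.image_singleton, Set.image_singleton] at h2
  have e1 : decode A + -decode A = ((0 : ℤ), (0 : ℤ)) := add_neg_cancel _
  have e2 : r + decode A + -decode A = r := add_neg_cancel_right _ _
  rw [e1, e2] at h2
  exact h2

/-- The final assembly: Maker wins from the empty board. -/
theorem win_of_cover (A : ℕ) (U0 : ℕ) (Us : List ℕ) (N : ℕ)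
    (hU : ∀ U ∈ U0 :: Us, ∃ n, ∀ B : Set Cell, Avoids B U → MakerForces n (cellsOf (1 <<< A)) B)
    (hN : U0 < 2 ^ N)
    (hcover : coverCheck (decode A) (U0 :: Us) N 0 = true) :
    ∃ n, MakerForces n (∅ : Set Cell) (∅ : Set Cell) := by
  obtain ⟨n, hn⟩ := replies_at_origin A U0 Us N 0 hU hN hcover
  refine ⟨n + 1, Or.inr ⟨((0 : ℤ), (0 : ℤ)), by simp, by simp, ?_⟩⟩
  intro r hr _ _
  have hins : (insert ((0 : ℤ), (0 : ℤ)) (∅ : Set Cell)) = {((0 : ℤ), (0 : ℤ))} := by simp
  have hins2 : (insert r (∅ : Set Cell)) = {r} := by simp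
  rw [hins, hins2]
  refine hn r ?_
  have hr1 : r.1 ≠ 0 ∨ r.2 ≠ 0 := by
    by_contra hc
    simp only [not_or, not_not] at hc
    exact hr (Prod.ext hc.1 hc.2)
  rcases hr1 with h | h
  · have h1 : 0 < r.1 ^ 2 := by positivity
    have h2 : 0 ≤ r.2 ^ 2 := by positivity
    omega
  · have h1 : 0 < r.2 ^ 2 := by positivity
    have h2 : 0 ≤ r.1 ^ 2 := by positivity
    omega

end Vale.Agent.Lib.P062
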